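import Vale.Agent.P032.R2.H939.FinalC
import Vale.Agent.P032.R2.H137.S1
import Vale.Agent.P032.R2.H659.S2Z
import Vale.Agent.P032.Words6.H926.Tab35

open Set Filter Topology Metric

namespace Vale.Agent.Results.P032.CommonColours

/-- Let `V i` be six open subsets of the Euclidean plane without two points at distance one whose
union is dense (by `AllColouringsOpen` a proper 6-colouring of the plane exists if and only if there
are six such sets).  They are contained in sets `U i` which are maximal among the open sets without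
two points at distance one.

Let `U` be such a maximal family and `W` its union.  Call `z` a point of order `> 3` if no three of
the `U i` have the union `W` near `z`, that is if `z` is in the closure of `W` minus the union of the
`U i`, `i ∈ s`, for every set `s` of at most three indices.  Call a set `s` of indices minimal at `x`
if near `x` the set `W` is the union of the `U i`, `i ∈ s`, but not of fewer of these sets.

There are two points `z`, `z'` of order `> 3` at distance one such that `(z, z')` is a limit of pairs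
`(x, x')` of points at distance one for which there are a set `Q` minimal at `x` and a set `Q'`
minimal at `x'`, each with at least four indices, with at least three common indices. -/
theorem result :
    (∀ V : Fin 6 → Set (EuclideanSpace ℝ (Fin 2)), (∀ i, IsOpen (V i)) →
      (∀ i, ∀ x ∈ V i, ∀ y ∈ V i, dist x y ≠ 1) → Dense (⋃ i, V i) →
      ∃ U : Fin 6 → Set (EuclideanSpace ℝ (Fin 2)), (∀ i, V i ⊆ U i) ∧ Dense (⋃ i, U i) ∧
        ∀ i, Maximal (fun W : Set (EuclideanSpace ℝ (Fin 2)) =>
          IsOpen W ∧ ∀ x ∈ W, ∀ y ∈ W, dist x y ≠ 1) (U i)) ∧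
    (∀ U : Fin 6 → Set (EuclideanSpace ℝ (Fin 2)), Dense (⋃ i, U i) →
      (∀ i, Maximal (fun W : Set (EuclideanSpace ℝ (Fin 2)) =>
        IsOpen W ∧ ∀ x ∈ W, ∀ y ∈ W, dist x y ≠ 1) (U i)) →
      ∃ z z', dist z z' = 1 ∧
        (∀ s : Set (Fin 6), s.ncard ≤ 3 → z ∈ closure ((⋃ j, U j) \ ⋃ i ∈ s, U i)) ∧
        (∀ s : Set (Fin 6), s.ncard ≤ 3 → z' ∈ closure ((⋃ j, U j) \ ⋃ i ∈ s, U i)) ∧
        (z, z') ∈ closure {p : EuclideanSpace ℝ (Fin 2) × EuclideanSpace ℝ (Fin 2) |
          dist p.1 p.2 = 1 ∧ ∃ Q Q' : Set (Fin 6),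
            (p.1 ∉ closure ((⋃ j, U j) \ ⋃ i ∈ Q, U i) ∧
              ∀ s ⊂ Q, p.1 ∈ closure ((⋃ j, U j) \ ⋃ i ∈ s, U i)) ∧
            (p.2 ∉ closure ((⋃ j, U j) \ ⋃ i ∈ Q', U i) ∧
              ∀ s ⊂ Q', p.2 ∈ closure ((⋃ j, U j) \ ⋃ i ∈ s, U i)) ∧
            4 ≤ Q.ncard ∧ 4 ≤ Q'.ncard ∧ 3 ≤ (Q ∩ Q').ncard}) :=
  Vale.Agent.P032.Six.resultW7 Vale.Agent.P032.R2.H939.act
    (Vale.Agent.P032.Six.h5W (fun _ _ H hmin => Vale.Agent.P032.R2.H137.certS1w H hmin)
      fun _ _ H hmin => Vale.Agent.P032.R2.H659.certS2 H hmin)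
    (Vale.Agent.P032.Six.h6W Vale.Agent.P032.Words6.H926.tab35
      (fun _ _ H hmin => Vale.Agent.P032.R2.H137.certS1w H hmin)
      fun _ _ H hmin => Vale.Agent.P032.R2.H659.certS2 H hmin)

end Vale.Agent.Results.P032.CommonColours
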