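import Vale.Agent.P032.T.ChiFinal
import Vale.Agent.P032.R2.H125.Full
import Vale.Agent.P032.R2.H125.Dens

open MeasureTheory Set

namespace Vale.Agent.Results.P032.MeasurableEqual

/-- (A) For every `k`: the plane has a proper colouring with `k` colours (no measurability or other
regularity of the colour classes is assumed) if and only if `6 ≤ k` and the plane has a proper
colouring `c'` with `k` colours (different colours at ANY two points at distance one) such that
every colour class is Lebesgue measurable and is the union of its interior and a nowhere dense set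
(so that it has the Baire property).  Hence the chromatic number of the plane is equal to the
measurable chromatic number of the plane.

(B) For every `k`: the plane has a proper colouring with `k` colours if and only if for every
`ε > 0` there are `k` Lebesgue measurable sets, none containing two points at distance one, which
cover the disc of some radius `R ≥ 1 / ε` about `0` up to at most the proportion `ε` of its area. -/
theorem result (k : ℕ) :
    ((∃ c : EuclideanSpace ℝ (Fin 2) → Fin k,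
      ∀ x y : EuclideanSpace ℝ (Fin 2), dist x y = 1 → c x ≠ c y) ↔
      (6 ≤ k ∧ ∃ c' : EuclideanSpace ℝ (Fin 2) → Fin k,
        (∀ x y : EuclideanSpace ℝ (Fin 2), dist x y = 1 → c' x ≠ c' y) ∧
        ∀ i, NullMeasurableSet (c' ⁻¹' {i}) volume ∧
          IsNowhereDense (c' ⁻¹' {i} \ interior (c' ⁻¹' {i})))) ∧
    ((∃ c : EuclideanSpace ℝ (Fin 2) → Fin k,
      ∀ x y : EuclideanSpace ℝ (Fin 2), dist x y = 1 → c x ≠ c y) ↔
      ∀ ε : ℝ, 0 < ε → ∃ A : Fin k → Set (EuclideanSpace ℝ (Fin 2)),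
        (∀ i, NullMeasurableSet (A i) volume) ∧
        (∀ i, ∀ x ∈ A i, ∀ y ∈ A i, dist x y ≠ 1) ∧
        ∃ R : ℝ, 1 / ε ≤ R ∧ volume (Metric.ball 0 R \ ⋃ i, A i) ≤
          ENNReal.ofReal ε * volume (Metric.ball (0 : EuclideanSpace ℝ (Fin 2)) R)) := by
  have hA : ∀ c : EuclideanSpace ℝ (Fin 2) → Fin k,
      (∀ x y : EuclideanSpace ℝ (Fin 2), dist x y = 1 → c x ≠ c y) →
      6 ≤ k ∧ ∃ c' : EuclideanSpace ℝ (Fin 2) → Fin k,
        (∀ x y : EuclideanSpace ℝ (Fin 2), dist x y = 1 → c' x ≠ c' y) ∧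
        ∀ i, NullMeasurableSet (c' ⁻¹' {i}) volume ∧
          IsNowhereDense (c' ⁻¹' {i} \ interior (c' ⁻¹' {i})) := by
    intro c hc
    let φ : ℂ ≃ₗᵢ[ℝ] EuclideanSpace ℝ (Fin 2) := Complex.orthonormalBasisOneI.repr
    obtain ⟨c₀, hc₀, hp₀⟩ := Vale.Agent.P032.T.transfer (fun z => c (φ z)) fun x y h => hc _ _ (by
      rw [φ.dist_map]
      exact h)
    obtain ⟨D, c₁, hD, hd, hc₁, hp₁, hE⟩ := Vale.Agent.P032.R2.H125.exists_pair hc₀ hp₀
    obtain ⟨c₂, hpr, hdens⟩ := Vale.Agent.P032.R2.H125.exists_full hc₁ hp₁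
    refine ⟨Vale.Agent.P032.M.six_le c₀ hc₀ hp₀, fun x => c₂ (φ.symm x), fun x y h => hpr _ _ (by
      rw [φ.symm.dist_map]
      exact h), fun i => ⟨?_, ?_⟩⟩
    · have h1 : c₂ ⁻¹' {i} =ᵐ[volume] c₁ ⁻¹' {i} := by
        filter_upwards [Vale.Agent.P032.R2.H125.ae_isDens hc₁] with x hx
        have h2 : c₂ x = c₁ x := hdens x _ hx
        refine propext ⟨fun h => ?_, fun h => ?_⟩
        · exact h2.symm.trans h
        · exact h2.trans h
      have h3 : NullMeasurableSet (c₂ ⁻¹' {i}) volume :=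
        (hc₁ (measurableSet_singleton i)).nullMeasurableSet.congr h1.symm
      exact h3.preimage φ.symm.measurePreserving.quasiMeasurePreserving
    · refine Vale.Agent.P032.R2.H125.nowhereDense (D := fun i => φ.symm ⁻¹' (D i))
        (c := fun x => c₂ (φ.symm x)) (fun i => (hD i).preimage φ.symm.continuous) ?_
        (fun j x hx => hdens _ _ (Vale.Agent.P032.R2.H125.isDens_of_mem hD hE hx)) i
      rw [← preimage_iUnion]
      exact hd.preimage φ.symm.toHomeomorph.isOpenMap
  refine ⟨⟨fun ⟨c, hc⟩ => hA c hc, fun ⟨_, c, hc, _⟩ => ⟨c, hc⟩⟩, ⟨fun ⟨c, hc⟩ ε _ => ?_, fun h =>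
    Vale.Agent.P032.R2.H125.exists_of_dense fun ε hε => ?_⟩⟩
  · obtain ⟨-, c', hc', hm⟩ := hA c hc
    refine ⟨fun i => c' ⁻¹' {i}, fun i => (hm i).1, fun i x hx y hy hxy =>
      hc' x y hxy (hx.trans hy.symm), 1 / ε, le_rfl, ?_⟩
    have h1 : Metric.ball (0 : EuclideanSpace ℝ (Fin 2)) (1 / ε) \ ⋃ i, c' ⁻¹' {i} = ∅ := by
      rw [sdiff_eq_empty]
      exact fun x _ => mem_iUnion.2 ⟨c' x, rfl⟩
    rw [h1, measure_empty]
    exact zero_le
  · obtain ⟨A, -, h2, R, h3, h4⟩ := h ε hε
    exact ⟨A, h2, R, h3, h4⟩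

end Vale.Agent.Results.P032.MeasurableEqual
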