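import Vale.Agent.P032.R2.H479.Final8
import Vale.Agent.P032.R2.H544.E3Top
import Vale.Agent.P032.R2.H616.NoSilent
import Vale.Agent.P032.Words6.H926.Tab35

open Set Filter Topology Metric

namespace Vale.Agent.Results.P032.StoppedArcs

open Vale.Agent.P032.Six

/-- Let `V i` be six open subsets of the Euclidean plane without two points at distance one whose
union is dense (by `AllColouringsOpen` a proper 6-colouring of the plane exists if and only if there
are six such sets).  They are contained in sets `U i` which are maximal among the open sets without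
two points at distance one.

Let `U` be such a maximal family and `W` its union.  Call `z` a point of order `> n` if no `n` of
the `U i` have the union `W` near `z`, that is if `z` is in the closure of `W` minus the union of the
`U i`, `i ∈ s`, for every set `s` of at most `n` indices.  Call a set `s` of indices minimal at `x`
if near `x` the set `W` is the union of the `U i`, `i ∈ s`, but not of fewer of these sets.  An
`ab`-arc of `x` is an arc of the unit circle about `x` which consists of common boundary points of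
`U a` and `U b` near which these two sets suffice.

There are two points `z`, `z'` of order `> 3` at distance one such that `z` has order `> 4` or
`(z, z')` is a limit of pairs `(x, x')` of points at distance one with the following properties, for
distinct `a`, `b`, `c`, `d`:

* `{a, b, c, d}` is minimal at `x`, and `x` has an `ab`-arc and a `cd`-arc;
* some set of exactly four indices is minimal at `x'`;
* `x'` is a limit of points of `ab`-arcs of `x`. -/
theorem result :
    (∀ V : Fin 6 → Set (EuclideanSpace ℝ (Fin 2)), (∀ i, IsOpen (V i)) →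
      (∀ i, ∀ x ∈ V i, ∀ y ∈ V i, dist x y ≠ 1) → Dense (⋃ i, V i) →
      ∃ U : Fin 6 → Set (EuclideanSpace ℝ (Fin 2)), (∀ i, V i ⊆ U i) ∧ Dense (⋃ i, U i) ∧
        ∀ i, Maximal (fun W : Set (EuclideanSpace ℝ (Fin 2)) =>
          IsOpen W ∧ ∀ x ∈ W, ∀ y ∈ W, dist x y ≠ 1) (U i)) ∧
    (∀ U : Fin 6 → Set (EuclideanSpace ℝ (Fin 2)), Dense (⋃ i, U i) →
      (∀ i, Maximal (fun W : Set (EuclideanSpace ℝ (Fin 2)) =>
        IsOpen W ∧ ∀ x ∈ W, ∀ y ∈ W, dist x y ≠ 1) (U i)) →
      ∃ z z', dist z z' = 1 ∧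
        (∀ s : Set (Fin 6), s.ncard ≤ 3 → z ∈ closure ((⋃ j, U j) \ ⋃ i ∈ s, U i)) ∧
        (∀ s : Set (Fin 6), s.ncard ≤ 3 → z' ∈ closure ((⋃ j, U j) \ ⋃ i ∈ s, U i)) ∧
        ((∀ s : Set (Fin 6), s.ncard ≤ 4 → z ∈ closure ((⋃ j, U j) \ ⋃ i ∈ s, U i)) ∨
        (z, z') ∈ closure {p : EuclideanSpace ℝ (Fin 2) × EuclideanSpace ℝ (Fin 2) |
          dist p.1 p.2 = 1 ∧ ∃ a b c d : Fin 6, [a, b, c, d].Nodup ∧
            (p.1 ∉ closure ((⋃ j, U j) \ ⋃ i ∈ ({a, b, c, d} : Set (Fin 6)), U i) ∧
              ∀ s ⊂ ({a, b, c, d} : Set (Fin 6)),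
                p.1 ∈ closure ((⋃ j, U j) \ ⋃ i ∈ s, U i)) ∧
            (∃ u v, dist u p.1 = 1 ∧ dist v p.1 = 1 ∧ ∃ r > 0,
              (∀ y, dist y p.1 = 1 → dist y u < r → y ∈ closure (U a) ∧ y ∈ closure (U b) ∧
                y ∉ closure ((⋃ j, U j) \ ⋃ i ∈ ({a, b} : Set (Fin 6)), U i)) ∧
              ∀ y, dist y p.1 = 1 → dist y v < r → y ∈ closure (U c) ∧ y ∈ closure (U d) ∧
                y ∉ closure ((⋃ j, U j) \ ⋃ i ∈ ({c, d} : Set (Fin 6)), U i)) ∧
            (∃ Q : Set (Fin 6), Q.ncard = 4 ∧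
              (p.2 ∉ closure ((⋃ j, U j) \ ⋃ i ∈ Q, U i) ∧
                ∀ s ⊂ Q, p.2 ∈ closure ((⋃ j, U j) \ ⋃ i ∈ s, U i))) ∧
            ∀ ε > 0, ∃ u, dist u p.1 = 1 ∧ dist u p.2 < ε ∧ ∃ r > 0,
              ∀ y, dist y p.1 = 1 → dist y u < r → y ∈ closure (U a) ∧ y ∈ closure (U b) ∧
                y ∉ closure ((⋃ j, U j) \ ⋃ i ∈ ({a, b} : Set (Fin 6)), U i)})) :=
  resultE8
    (fun _ _ h hmin _ h6 hcl i => Vale.Agent.P032.R2.H616.no_silent
      (Vale.Agent.P032.Words6.H704.six_of h h6 hcl) hmin i)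
    Vale.Agent.P032.R2.H544.E3T.h5
    (Vale.Agent.P032.R2.H544.E3T.h6 Vale.Agent.P032.Words6.H926.tab35)

end Vale.Agent.Results.P032.StoppedArcs
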